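import Crest.Agent.R163.Q3.D.R2.S0
import Crest.Agent.R163.Q3.D.R2.H

set_option autoImplicit false
set_option maxRecDepth 100000
set_option linter.all false
set_option Elab.async false

namespace Crest.Agent.R163.R2

theorem p0_7_62 : Ok2 par f7 Box3.unit (selB2 1 (selB2 0 C0 11150372594145743689541047598944008061589503) 14167099448608935641119) :=
  Ok2.run hw hf7 ⟨302,25,25,13,13⟩ 58
    (.chk true 0)
    (by decide +kernel)

theorem p0_7_63 : Ok2 par f7 Box3.unit (selB2 1 C0 11150372594145743689541047598944008061589503) :=
  Ok2.run hw hf7 ⟨253,19,19,13,13⟩ 58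
    (.chk false 0)
    (by decide +kernel)


end Crest.Agent.R163.R2
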